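import Crest.Agent.R18.Loc
import Crest.Agent.R18.PL

/-! Row 18 block UC: auxiliary lemmas. -/

set_option autoImplicit false
set_option linter.unusedSectionVars false
open scoped Pointwise NumberField
open IsDedekindDomain Crest.NumberTheoryR

namespace Crest.Agent.R18.UC

section grp
variable {G : Type*} [Group G]

theorem mem_of_coprime {N : Subgroup G} {g : G} {a b : ℕ} (h : a.Coprime b) (ha : g ^ a ∈ N) (hb : g ^ b ∈ N) :
    g ∈ N := by
  have e := Nat.gcd_eq_gcd_ab a b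
  rw [h.gcd_eq_one] at e
  have := N.mul_mem (N.zpow_mem ha (a.gcdA b)) (N.zpow_mem hb (a.gcdB b))
  rwa [← zpow_natCast, ← zpow_natCast, ← zpow_mul, ← zpow_mul, ← zpow_add, ← e, Nat.cast_one, zpow_one] at this

theorem comb (U : Subgroup G) (N N' : ℕ → Subgroup G) (P : Finset ℕ) (hP : ∀ s ∈ P, s.Prime)
    (h : ∀ s ∈ P, ∀ g ∈ U, g ^ s ∈ N s ∧ g ^ s ∈ N' s) (h1 : ∀ s ∈ P, ∃ g ∈ U, g ∉ N s)
    (h2 : ∀ s ∈ P, ∃ g ∈ U, g ∉ N' s) : ∃ g ∈ U, ∀ s ∈ P, g ∉ N s ∧ g ∉ N' s := by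
  induction P using Finset.induction_on with
  | empty => exact ⟨1, U.one_mem, by simp⟩
  | insert t P ht ih =>
    have sub := Finset.subset_insert t P
    have mt := Finset.mem_insert_self t P
    obtain ⟨g, hg, H⟩ := ih (fun s hs => hP s (sub hs)) (fun s hs => h s (sub hs)) (fun s hs => h1 s (sub hs))
      (fun s hs => h2 s (sub hs))
    obtain ⟨x, hx, hx1, hx2⟩ : ∃ x ∈ U, x ∉ N t ∧ x ∉ N' t := by
      obtain ⟨a, ha, ha'⟩ := h1 t mt
      obtain ⟨b, hb, hb'⟩ := h2 t mt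
      by_cases k1 : a ∈ N' t
      · by_cases k2 : b ∈ N t
        · exact ⟨a * b, U.mul_mem ha hb, fun k => ha' ((Subgroup.mul_mem_cancel_right _ k2).1 k),
            fun k => hb' ((Subgroup.mul_mem_cancel_left _ k1).1 k)⟩
        · exact ⟨b, hb, k2, hb'⟩
      · exact ⟨a, ha, ha', k1⟩
    have cop : ∀ s ∈ P, t.Coprime s := fun s hs =>
      (Nat.coprime_primes (hP t mt) (hP s (sub hs))).2 (by rintro rfl; exact ht hs)
    refine ⟨g ^ t * x ^ (∏ s ∈ P, s), U.mul_mem (U.pow_mem hg _) (U.pow_mem hx _), fun s hs => ?_⟩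
    rcases Finset.mem_insert.1 hs with rfl | hs'
    · have c : (∏ s ∈ P, s).Coprime s := (Nat.Coprime.prod_right cop).symm
      exact ⟨fun k => hx1 (mem_of_coprime c ((Subgroup.mul_mem_cancel_left _ (h s mt g hg).1).1 k) (h s mt x hx).1),
        fun k => hx2 (mem_of_coprime c ((Subgroup.mul_mem_cancel_left _ (h s mt g hg).2).1 k) (h s mt x hx).2)⟩
    · obtain ⟨m, hm⟩ := Finset.dvd_prod_of_mem (fun s : ℕ => s) hs'
      have k0 := h s hs _ (U.pow_mem hx m)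
      rw [← pow_mul, mul_comm, ← hm] at k0
      exact ⟨fun k => (H s hs').1 (mem_of_coprime (cop s hs') ((Subgroup.mul_mem_cancel_right _ k0.1).1 k)
        (h s hs g hg).1), fun k => (H s hs').2 (mem_of_coprime (cop s hs')
        ((Subgroup.mul_mem_cancel_right _ k0.2).1 k) (h s hs g hg).2)⟩

end grp

variable {F E : Type*} [Field F] [NumberField F] [Field E] [Algebra F E] [IsGalois F E]

theorem val_one_sub_le (B : ValuationSubring E) {ξ : E} {n : ℕ} (hn : 0 < n) (h : IsPrimitiveRoot ξ n) (k : ℕ) :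
    B.valuation (1 - ξ ^ k) ≤ B.valuation (1 - ξ) := by
  rw [← mul_neg_geom_sum, map_mul]
  exact mul_le_of_le_one_right' ((B.valuation_le_one_iff _).2
    (sum_mem fun i _ => pow_mem (mem_of_isIntegral B (h.isIntegral hn)) i))

theorem val_one_sub_eq (B : ValuationSubring E) {ξ : E} {n : ℕ} (hn : 0 < n) (h : IsPrimitiveRoot ξ n) {k : ℕ}
    (hk : k.Coprime n) : B.valuation (1 - ξ ^ k) = B.valuation (1 - ξ) := by
  have : NeZero n := ⟨hn.ne'⟩
  refine (val_one_sub_le B hn h k).antisymm ?_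
  obtain ⟨i, -, e⟩ := (h.pow_of_coprime k hk).eq_pow_of_pow_eq_one h.pow_eq_one
  nth_rw 1 [← e]
  exact val_one_sub_le B hn (h.pow_of_coprime k hk) i

/-- if the fixed field of `U` embeds in `ℚ_[ℓ]` then `U` acts on `μ_ℓ` through the full group -/
theorem kappa_surj {ℓ : ℕ} [Fact ℓ.Prime] (U : Subgroup (E ≃ₐ[F] E))
    (e : IntermediateField.fixedField U →+* ℚ_[ℓ]) {ζ : E} (hζ : IsPrimitiveRoot ζ ℓ) :
    U.map (hζ.autToPow F) = ⊤ := by
  classical
  have hl : ℓ.Prime := Fact.out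
  have := cz F E
  set M := U.map (hζ.autToPow F)
  let f : (ZMod ℓ)ˣ → E := fun j => 1 - ζ ^ (j : ZMod ℓ).val
  have hf : ∀ (g : E ≃ₐ[F] E) j, g (f j) = f (hζ.autToPow F g * j) := fun g j => by
    simp only [f, map_sub, map_one, map_pow, Units.val_mul, ZMod.val_mul]
    rw [← hζ.autToPow_spec F g, ← pow_mul, ← pow_eq_pow_mod _ hζ.pow_eq_one]
  let _ := Fintype.ofFinite M
  have hx : Fix U (∏ j : M, f j) := fun g hg => by
    rw [map_prod]
    exact Fintype.prod_equiv (Equiv.mulLeft (⟨_, g, hg, rfl⟩ : M)) _ _ fun j => hf g j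
  obtain ⟨n, rfl⟩ : ∃ n, ℓ = n + 1 := ⟨ℓ - 1, by have := hl.pos; omega⟩
  have h1 : (1 : E) - ζ ≠ 0 := sub_ne_zero.2 (hζ.ne_one hl.one_lt).symm
  have hv : ∀ B : ValuationSubring E, B.valuation ((∏ j : M, f j) ^ n / ((n + 1 : ℕ) : E) ^ Nat.card M) = 1 := by
    intro B
    rw [map_div₀, map_pow, map_pow, map_prod, Nat.cast_succ, ← hζ.prod_one_sub_pow_eq_order, map_prod,
      Finset.prod_congr rfl fun j _ => val_one_sub_eq B hl.pos hζ (ZMod.val_coe_unit_coprime _),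
      Finset.prod_congr rfl fun k hk => val_one_sub_eq B hl.pos hζ ((Nat.coprime_of_lt_prime (by omega)
        (by simpa using hk) hl).symm), Finset.prod_const, Finset.prod_const, Finset.card_range, Finset.card_univ,
      Nat.card_eq_fintype_card, ← pow_mul, ← pow_mul, mul_comm]
    exact div_self (pow_ne_zero _ ((map_ne_zero _).2 h1))
  let x : IntermediateField.fixedField U := ⟨_, (fix_iff_mem U _).1 hx⟩
  have hy := norm_ev_eq_one e ((fix_iff_mem U _).2 (x ^ n / ((n + 1 : ℕ) : _) ^ Nat.card M).2) fun B _ => by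
    simpa [x] using hv B
  have hn : n ≠ 0 := by have := hl.one_lt; omega
  have p1 : (1 : ℝ) < (n + 1 : ℕ) := by exact_mod_cast hl.one_lt
  rw [ev_coe, map_div₀, map_pow, map_pow, map_natCast, norm_div, norm_pow, norm_pow, Padic.norm_p] at hy
  have hx0 : e x ≠ 0 := fun h => by simp [h, hn] at hy
  rw [Padic.norm_eq_zpow_neg_valuation hx0, div_eq_one_iff_eq (by positivity), ← zpow_natCast, ← zpow_mul,
    inv_pow, ← zpow_natCast, ← zpow_neg, zpow_right_inj₀ (by positivity) p1.ne', neg_mul, neg_inj] at hy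
  refine Subgroup.eq_top_of_le_card _ ?_
  rw [Nat.card_eq_fintype_card, ZMod.card_units]
  exact Nat.le_of_dvd Nat.card_pos (Int.natCast_dvd_natCast.1 (Dvd.intro_left _ hy))

theorem exists_not_pow {ℓ s : ℕ} [Fact ℓ.Prime] (hs : s.Prime) (h : s ∣ ℓ - 1) :
    ∃ u : (ZMod ℓ)ˣ, ¬ ∃ v, v ^ s = u := by
  have := Fact.mk hs
  by_contra hc
  have hi : Function.Injective fun v : (ZMod ℓ)ˣ => v ^ s :=
    Finite.injective_iff_surjective.2 fun u => not_not.1 fun k => hc ⟨u, k⟩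
  obtain ⟨v, hv⟩ := exists_prime_orderOf_dvd_card (G := (ZMod ℓ)ˣ) s (by rwa [ZMod.card_units])
  have : v = 1 := hi (by simp only [← hv, pow_orderOf_eq_one, one_pow])
  exact hs.one_lt.ne (by rw [← hv, this, orderOf_one])

theorem kappa_eq {ℓ : ℕ} [Fact ℓ.Prime] {ζ : E} (hζ : IsPrimitiveRoot ζ ℓ) {g : E ≃ₐ[F] E} {n : ℕ}
    (h : g ζ = ζ ^ n) : (hζ.autToPow F g : ZMod ℓ) = n := by
  rw [← hζ.autToPow_spec F g, pow_eq_pow_mod n hζ.pow_eq_one] at h
  rw [← ZMod.natCast_zmod_val (hζ.autToPow F g : ZMod ℓ),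
    hζ.pow_inj (ZMod.val_lt _) (Nat.mod_lt _ (Fact.out : ℓ.Prime).pos) h, ZMod.natCast_mod]

/-- transfer of `ℓ`-adic embeddings from `ℚ̄` to `E` -/
theorem exists_transfer (U : Subgroup (E ≃ₐ[F] E)) (hU : IsOpen (U : Set (E ≃ₐ[F] E))) :
    ∃ V : Subgroup Gam, IsOpen (V : Set Gam) ∧ ∀ W ≤ V,
      Nonempty (IntermediateField.fixedField U →+* IntermediateField.fixedField W) := by
  have := numberField_fixedField U hU
  let ι : IntermediateField.fixedField U →ₐ[ℚ] Qb := IsAlgClosed.lift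
  have : FiniteDimensional ℚ ι.fieldRange := Module.Finite.range ι.toLinearMap
  exact ⟨ι.fieldRange.fixingSubgroup, IntermediateField.fixingSubgroup_isOpen _, fun W hW =>
    ⟨ι.toRingHom.codRestrict _ fun x g => hW g.2 ⟨ι x, x, rfl⟩⟩⟩

/-- a closed condition on the generators passes to the decomposition group -/
theorem dec_mem {U V K : Subgroup (E ≃ₐ[F] E)} (hU : IsOpen (U : Set (E ≃ₐ[F] E)))
    (hV : IsOpen (V : Set (E ≃ₐ[F] E))) (hK : IsClosed (K : Set (E ≃ₐ[F] E))) (hKV : K ≤ V) {q f : ℕ}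
    {A : ValuationSubring E} (hA : Over A q) {σ d : E ≃ₐ[F] E} (hσ : MinFrob U A q σ f) (hd : d ∈ U) (hd' : d ∈ V)
    (hs : Stab A d) (h1 : ∀ i ∈ U, Inert A i → i ∈ K) (h2 : ∀ a : ℕ, σ ^ a ∈ V → σ ^ a ∈ K) : d ∈ K := by
  refine (closure_minimal (t := (K : Set (E ≃ₐ[F] E)) ∪ (V : Set (E ≃ₐ[F] E))ᶜ) ?_ (hK.union hV.isClosed_compl)
    (dec4 hU hA hσ hd hs)).resolve_right (not_not.2 hd')
  rintro _ ⟨a, i, hi, hI, rfl⟩
  by_cases h : σ ^ a * i ∈ V
  · exact Or.inl (K.mul_mem (h2 a ((Subgroup.mul_mem_cancel_right _ (hKV (h1 i hi hI))).1 h)) (h1 i hi hI))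
  · exact Or.inr h

theorem finite_roots {s : ℕ} (hs : 0 < s) : {ζ : E | ζ ^ s = 1}.Finite :=
  (Polynomial.nthRoots s (1 : E)).finite_toSet.subset fun _ h => (Polynomial.mem_nthRoots hs).2 h

/-- the logarithm of the quotient of the two cyclotomic characters -/
theorem exists_eta (hE : IsSolvablyClosed E) (S : PreSetup F E) {ℓ : ℕ} [Fact ℓ.Prime] (h2 : ℓ ≠ 2)
    (hc : ¬ CaseA S ℓ) : ∃ η : Gam → ℤ_[ℓ], IsChar S.H η ∧ (∃ g ∈ S.H, η g ≠ 0) ∧
      ∀ (B : ValuationSubring Qb) (σ : Gam) (p n : ℕ), Over B p → p ≠ ℓ → Frob B σ n →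
        (∀ (k : ℕ) (ζ : E), ζ ^ (ℓ ^ k) = 1 → S.a σ ζ = ζ ^ n) → η σ = 0 := by
  have hn : ∀ u : ℤ_[ℓ]ˣ, ‖((u : ℤ_[ℓ]) : ℚ_[ℓ])‖ = 1 := fun u => PadicInt.norm_units u
  refine ⟨fun g => plog ℓ (chi ℓ (S.a g) : ℤ_[ℓ]) - plog ℓ (chi ℓ g : ℤ_[ℓ]), ⟨fun x hx y hy => ?_, ?_⟩, ?_,
    fun B σ p n hB hp hσ h => ?_⟩
  · simp only [S.mul x hx y hy, chi_mul, Units.val_mul, PadicInt.coe_mul, plog_mul ℓ h2 (hn _) (hn _)]
    ring
  · exact ((plog_cont ℓ h2).comp ((continuous_subtype_val.comp (chi_cont ℓ)).comp_continuousOn S.cont)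
      fun g _ => hn _).sub ((plog_cont ℓ h2).comp (continuous_subtype_val.comp (chi_cont ℓ)).continuousOn
      fun g _ => hn _)
  · by_contra h
    refine hc fun g hg => ?_
    have := (plog_eq_iff ℓ h2 (hn _) (hn _)).1 (sub_eq_zero.1 (not_not.1 fun k => h ⟨g, hg, k⟩))
    exact Units.ext (Subtype.ext (by simpa using this))
  · simp only
    rw [chi_eq_nat hE ℓ _ n h, chi_eq_nat sc_qb ℓ σ n fun k ζ hζ => hσ.root hB (fun hd => hp
      ((Nat.prime_dvd_prime_iff_eq hB.1 Fact.out).1 (hB.1.dvd_of_dvd_pow hd))) hζ, sub_self]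

end Crest.Agent.R18.UC
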